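import Mathlib

/-! Scale induction for moment generating functions (row 160, helper12).
`X ≥ 0` bounded with `E X ≤ A`, `E X² ≤ 2 A²` and the two recursive bounds
`E e^{hX} ≤ exp (h E X + q ψ(h/q))`, `E e^{hX} ≤ e^h (E e^{(h/q) X})^q`
has `log E e^{hX} ≤ 2 A h + 20 A h²`. -/

set_option autoImplicit false

namespace Crest.Agent.H12.MgfScale

open MeasureTheory Real ProbabilityTheory

lemma exp_le_quad {y : ℝ} (hy0 : 0 ≤ y) (hy : y ≤ 1/8) : Real.exp y ≤ 1 + y + (3/5) * y ^ 2 := by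
  have h := Real.exp_bound' (x := y) hy0 (by linarith) (n := 3) (by norm_num)
  norm_num [Finset.sum_range_succ, Nat.factorial] at h
  have h3 : y ^ 3 ≤ (1/8) * y ^ 2 := by nlinarith [sq_nonneg y]
  nlinarith [sq_nonneg y]

/-- elementary: `exp(x) - 1 - x ≤ (x²/2) e^{b}` for `0 ≤ x ≤ b`. -/
lemma exp_sub_le {x b : ℝ} (hx0 : 0 ≤ x) (hxb : x ≤ b) :
    Real.exp x - 1 - x ≤ x ^ 2 / 2 * Real.exp b := by
  -- the function g(x) = x²/2 e^x - (e^x - 1 - x) is nonneg
  have h1 : Real.exp x - 1 - x ≤ x ^ 2 / 2 * Real.exp x := by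
    have hmono : MonotoneOn (fun t : ℝ => t ^ 2 / 2 * Real.exp t - (Real.exp t - 1 - t))
        (Set.Ici 0) := by
      apply monotoneOn_of_deriv_nonneg (convex_Ici 0)
      · fun_prop
      · fun_prop
      · intro t ht
        rw [interior_Ici, Set.mem_Ioi] at ht
        have : HasDerivAt (fun t : ℝ => t ^ 2 / 2 * Real.exp t - (Real.exp t - 1 - t))
            ((t * Real.exp t + t ^ 2 / 2 * Real.exp t) - (Real.exp t - 1)) t := by
          have ha : HasDerivAt (fun t : ℝ => t ^ 2 / 2) t t := by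
            have := (hasDerivAt_pow 2 t).div_const 2
            simpa using this
          have hb := ha.mul (Real.hasDerivAt_exp t)
          have hc : HasDerivAt (fun t : ℝ => Real.exp t - 1 - t) (Real.exp t - 1) t := by
            exact ((Real.hasDerivAt_exp t).sub_const 1).sub (hasDerivAt_id' t)
          exact hb.sub hc
        rw [this.deriv]
        have h2 : Real.exp (-t) ≥ 1 - t := by
          have := Real.add_one_le_exp (-t); linarith
        have h3 : Real.exp t * Real.exp (-t) = 1 := by rw [← Real.exp_add]; simp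
        have h4 : 0 < Real.exp t := Real.exp_pos t
        nlinarith [mul_le_mul_of_nonneg_left h2 h4.le, mul_pos ht h4, mul_nonneg (sq_nonneg t) h4.le]
    have := hmono (Set.mem_Ici.2 le_rfl) (Set.mem_Ici.2 hx0) hx0
    simp at this
    linarith
  have h2 : Real.exp x ≤ Real.exp b := Real.exp_le_exp.2 hxb
  have : x ^ 2 / 2 * Real.exp x ≤ x ^ 2 / 2 * Real.exp b :=
    mul_le_mul_of_nonneg_left h2 (by positivity)
  linarith

variable {Ω : Type*} [MeasurableSpace Ω] (μ : Measure Ω) [IsProbabilityMeasure μ]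

/-- `E e^{hX} - 1 - h E X`. -/
noncomputable def psi (X : Ω → ℝ) (h : ℝ) : ℝ := ∫ ω, (Real.exp (h * X ω) - 1 - h * X ω) ∂μ

section

variable {μ}

lemma integrable_of_bdd {X : Ω → ℝ} {B : ℝ} (hXm : AEStronglyMeasurable X μ)
    (hX0 : ∀ ω, 0 ≤ X ω) (hXB : ∀ ω, X ω ≤ B) : Integrable X μ := by
  refine Integrable.of_bound hXm B (Filter.Eventually.of_forall fun ω => ?_)
  rw [Real.norm_eq_abs, abs_of_nonneg (hX0 ω)]; exact hXB ω

lemma integrable_exp_of_bdd {X : Ω → ℝ} {B : ℝ} (h : ℝ) (hh : 0 ≤ h)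
    (hXm : AEStronglyMeasurable X μ) (hXB : ∀ ω, X ω ≤ B) :
    Integrable (fun ω => Real.exp (h * X ω)) μ := by
  refine Integrable.of_bound (Real.continuous_exp.comp_aestronglyMeasurable (hXm.const_mul h))
    (Real.exp (h * B)) (Filter.Eventually.of_forall fun ω => ?_)
  rw [Real.norm_eq_abs, abs_of_pos (Real.exp_pos _)]
  exact Real.exp_le_exp.2 (mul_le_mul_of_nonneg_left (hXB ω) hh)

lemma psi_eq {X : Ω → ℝ} {B : ℝ} (h : ℝ) (hh : 0 ≤ h) (hXm : AEStronglyMeasurable X μ)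
    (hX0 : ∀ ω, 0 ≤ X ω) (hXB : ∀ ω, X ω ≤ B) :
    psi μ X h = ∫ ω, Real.exp (h * X ω) ∂μ - 1 - h * ∫ ω, X ω ∂μ := by
  unfold psi
  rw [integral_sub, integral_sub, integral_const_mul]
  · simp
  · exact integrable_exp_of_bdd h hh hXm hXB
  · exact integrable_const _
  · exact (integrable_exp_of_bdd h hh hXm hXB).sub (integrable_const _)
  · exact (integrable_of_bdd hXm hX0 hXB).const_mul h

lemma psi_small {X : Ω → ℝ} {A B h : ℝ} (hh : 0 ≤ h) (hXm : AEStronglyMeasurable X μ)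
    (hX0 : ∀ ω, 0 ≤ X ω) (hXB : ∀ ω, X ω ≤ B) (hX2 : ∫ ω, X ω ^ 2 ∂μ ≤ 2 * A ^ 2)
    (hB : h * B ≤ Real.log 2) : psi μ X h ≤ 2 * (A * h) ^ 2 := by
  have hint2 : Integrable (fun ω => X ω ^ 2) μ := by
    refine Integrable.of_bound (hXm.pow 2) (B ^ 2) (Filter.Eventually.of_forall fun ω => ?_)
    rw [Real.norm_eq_abs, abs_of_nonneg (sq_nonneg _)]
    exact pow_le_pow_left₀ (hX0 ω) (hXB ω) 2
  have h1 : psi μ X h ≤ ∫ ω, h ^ 2 * X ω ^ 2 ∂μ := by
    unfold psi
    apply integral_mono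
    · exact ((integrable_exp_of_bdd h hh hXm hXB).sub (integrable_const _)).sub
        ((integrable_of_bdd hXm hX0 hXB).const_mul h)
    · exact hint2.const_mul _
    · intro ω
      have h2 := exp_sub_le (x := h * X ω) (b := Real.log 2) (mul_nonneg hh (hX0 ω))
        ((mul_le_mul_of_nonneg_left (hXB ω) hh).trans hB)
      rw [Real.exp_log (by norm_num)] at h2
      simp only
      nlinarith
  rw [integral_const_mul] at h1
  nlinarith [mul_le_mul_of_nonneg_left hX2 (sq_nonneg h)]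

/-- Main scale induction on `ψ`. -/
theorem psi_le {X : Ω → ℝ} {A B : ℝ} {q : ℕ} (hq : 2 ≤ q) (hA : 0 < A)
    (hXm : AEStronglyMeasurable X μ) (hX0 : ∀ ω, 0 ≤ X ω) (hXB : ∀ ω, X ω ≤ B)
    (hX1 : ∫ ω, X ω ∂μ ≤ A) (hX2 : ∫ ω, X ω ^ 2 ∂μ ≤ 2 * A ^ 2)
    (hrec : ∀ h : ℝ, 0 ≤ h → ∫ ω, Real.exp (h * X ω) ∂μ ≤
      Real.exp (h * (∫ ω, X ω ∂μ) + q * psi μ X (h / q)))
    {h : ℝ} (hh : 0 ≤ h) (hhA : A * h ≤ 1/10) : psi μ X h ≤ 2 * (A * h) ^ 2 := by
  have hq0 : (0:ℝ) < q := by positivity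
  have hq2 : (2:ℝ) ≤ q := by exact_mod_cast hq
  -- induction on scales
  have step : ∀ h : ℝ, 0 ≤ h → A * h ≤ 1/10 → psi μ X (h / q) ≤ 2 * (A * (h / q)) ^ 2 →
      psi μ X h ≤ 2 * (A * h) ^ 2 := by
    intro h hh hhA hprev
    rw [psi_eq h hh hXm hX0 hXB]
    have h1 := hrec h hh
    set m := ∫ ω, X ω ∂μ with hm
    have hm0 : 0 ≤ m := integral_nonneg hX0
    have h2 : (q:ℝ) * psi μ X (h / q) ≤ (A * h) ^ 2 := by
      have : (q:ℝ) * psi μ X (h / q) ≤ q * (2 * (A * (h / q)) ^ 2) :=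
        mul_le_mul_of_nonneg_left hprev hq0.le
      refine this.trans ?_
      have : (q:ℝ) * (2 * (A * (h / q)) ^ 2) = (2 / q) * (A * h) ^ 2 := by
        field_simp
      rw [this]
      have h3 : (2:ℝ) / q ≤ 1 := by rw [div_le_one hq0]; exact hq2
      nlinarith [sq_nonneg (A * h)]
    have h2' : 0 ≤ psi μ X (h / q) := by
      apply integral_nonneg
      intro ω
      have := Real.add_one_le_exp (h / q * X ω)
      simp only [Pi.zero_apply]
      linarith
    have h2'' : 0 ≤ (q:ℝ) * psi μ X (h / q) := mul_nonneg hq0.le h2'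
    -- monotonicity in m : replace h*m by A*h
    have hmA : h * m ≤ A * h := by nlinarith
    have hAh0 : 0 ≤ A * h := by positivity
    set y := A * h with hy
    set z := (q:ℝ) * psi μ X (h / q) with hz
    have hexp1 : Real.exp (h * m + z) - h * m ≤ Real.exp (y + z) - y := by
      have h5 : Real.exp (y + z) ≥ Real.exp (h * m + z) + (y - h * m) := by
        have h6 : Real.exp (y + z) = Real.exp (h * m + z) * Real.exp (y - h * m) := by
          rw [← Real.exp_add]; ring_nf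
        have h7 := Real.add_one_le_exp (y - h * m)
        have h8 : 1 ≤ Real.exp (h * m + z) := Real.one_le_exp (by positivity)
        have h9 : 0 ≤ y - h * m := by linarith
        rw [h6]
        nlinarith [mul_le_mul_of_nonneg_left h7 (Real.exp_pos (h * m + z)).le,
          mul_le_mul_of_nonneg_right h8 h9]
      linarith
    have hquad : Real.exp (y + z) ≤ 1 + (y + z) + (3/5) * (y + z) ^ 2 := by
      apply exp_le_quad (by positivity)
      nlinarith
    have hzy : z ≤ y ^ 2 := h2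
    have hyz : y + z ≤ (11/10) * y := by nlinarith
    have : (y + z) ^ 2 ≤ ((11/10) * y) ^ 2 := pow_le_pow_left₀ (by positivity) hyz 2
    nlinarith
  -- choose k large
  have hlog2 : 0 < Real.log 2 := Real.log_pos (by norm_num)
  have main : ∀ k : ℕ, ∀ h : ℝ, 0 ≤ h → A * h ≤ 1/10 → (h / q ^ k) * B ≤ Real.log 2 →
      psi μ X h ≤ 2 * (A * h) ^ 2 := by
    intro k
    induction k with
    | zero =>
      intro h hh _ hB
      simp at hB
      exact psi_small hh hXm hX0 hXB hX2 hB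
    | succ k ih =>
      intro h hh hhA hB
      apply step h hh hhA
      apply ih (h / q) (by positivity)
      · have : h / q ≤ h := div_le_self hh (by linarith)
        nlinarith
      · rw [div_div, ← pow_succ']
        exact hB
  have hB0 : 0 ≤ B ∨ B < 0 := le_or_gt 0 B
  rcases hB0 with hB0 | hB0
  · obtain ⟨k, hk⟩ := pow_unbounded_of_one_lt (h * B / Real.log 2) (show (1:ℝ) < q by linarith)
    apply main k h hh hhA
    rw [div_lt_iff₀ hlog2] at hk
    rw [div_mul_eq_mul_div, div_le_iff₀ (by positivity)]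
    linarith
  · apply main 0 h hh hhA
    simp
    nlinarith

/-- The final bound for all `h ≥ 0`. -/
theorem log_mgf_le {X : Ω → ℝ} {A B : ℝ} {q : ℕ} (hq : 2 ≤ q) (hA : 0 < A)
    (hXm : AEStronglyMeasurable X μ) (hX0 : ∀ ω, 0 ≤ X ω) (hXB : ∀ ω, X ω ≤ B)
    (hX1 : ∫ ω, X ω ∂μ ≤ A) (hX2 : ∫ ω, X ω ^ 2 ∂μ ≤ 2 * A ^ 2)
    (hrec : ∀ h : ℝ, 0 ≤ h → ∫ ω, Real.exp (h * X ω) ∂μ ≤
      Real.exp (h * (∫ ω, X ω ∂μ) + q * psi μ X (h / q)))
    (hrec2 : ∀ h : ℝ, 0 ≤ h → ∫ ω, Real.exp (h * X ω) ∂μ ≤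
      Real.exp h * (∫ ω, Real.exp (h / q * X ω) ∂μ) ^ q)
    {h : ℝ} (hh : 0 ≤ h) :
    ∫ ω, Real.exp (h * X ω) ∂μ ≤ Real.exp (2 * A * h + 20 * A * h ^ 2) := by
  have hq0 : (0:ℝ) < q := by positivity
  have hq2 : (2:ℝ) ≤ q := by exact_mod_cast hq
  have small : ∀ h : ℝ, 0 ≤ h → A * h ≤ 1/10 →
      ∫ ω, Real.exp (h * X ω) ∂μ ≤ Real.exp (2 * A * h) := by
    intro h hh hhA
    have h1 := psi_le hq hA hXm hX0 hXB hX1 hX2 hrec hh hhA
    rw [psi_eq h hh hXm hX0 hXB] at h1
    have h2 : ∫ ω, Real.exp (h * X ω) ∂μ ≤ 1 + 2 * A * h := by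
      have : h * ∫ ω, X ω ∂μ ≤ h * A := mul_le_mul_of_nonneg_left hX1 hh
      nlinarith [mul_nonneg hA.le hh]
    refine h2.trans ?_
    have := Real.add_one_le_exp (2 * A * h)
    linarith
  -- iterate
  have iter : ∀ k : ℕ, ∀ h : ℝ, 0 ≤ h → A * (h / q ^ k) ≤ 1/10 →
      ∫ ω, Real.exp (h * X ω) ∂μ ≤ Real.exp (k * h + 2 * A * h) := by
    intro k
    induction k with
    | zero =>
      intro h hh hk
      simp at hk
      have := small h hh (by linarith)
      simpa using this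
    | succ k ih =>
      intro h hh hk
      have h1 := hrec2 h hh
      have h2 := ih (h / q) (by positivity) (by
        rw [div_div, ← pow_succ']; exact hk)
      have h3 : (0:ℝ) ≤ ∫ ω, Real.exp (h / q * X ω) ∂μ :=
        integral_nonneg fun ω => (Real.exp_pos _).le
      have h4 := pow_le_pow_left₀ h3 h2 q
      calc ∫ ω, Real.exp (h * X ω) ∂μ ≤ Real.exp h * (∫ ω, Real.exp (h / q * X ω) ∂μ) ^ q := h1
        _ ≤ Real.exp h * (Real.exp (k * (h / q) + 2 * A * (h / q))) ^ q :=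
            mul_le_mul_of_nonneg_left h4 (Real.exp_pos _).le
        _ = Real.exp (((k + 1 : ℕ) : ℝ) * h + 2 * A * h) := by
            rw [← Real.exp_nat_mul, ← Real.exp_add]
            congr 1
            push_cast
            field_simp
            ring
  by_cases hsm : A * h ≤ 1/10
  · refine (small h hh hsm).trans (Real.exp_le_exp.2 ?_)
    have : 0 ≤ 20 * A * h ^ 2 := by positivity
    linarith
  · push Not at hsm
    have hhpos : 0 < h := by
      by_contra hc
      push Not at hc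
      nlinarith
    -- minimal k with q^k ≥ 10 A h
    obtain ⟨k, hk⟩ := pow_unbounded_of_one_lt (10 * A * h) (show (1:ℝ) < q by linarith)
    -- use Nat.find
    have hex : ∃ k : ℕ, 10 * A * h ≤ (q:ℝ) ^ k := ⟨k, hk.le⟩
    classical
    set k0 := Nat.find hex with hk0
    have hk0s : 10 * A * h ≤ (q:ℝ) ^ k0 := Nat.find_spec hex
    have hk0pos : 0 < k0 := by
      rcases Nat.eq_zero_or_pos k0 with h0 | h0
      · rw [h0] at hk0s; simp at hk0s; linarith
      · exact h0
    have hk0m : (q:ℝ) ^ (k0 - 1) < 10 * A * h := by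
      have := Nat.find_min hex (m := k0 - 1) (by omega)
      push Not at this
      exact this
    have hkbound : (k0 : ℝ) ≤ 2 * (10 * A * h) := by
      have h1 : ((k0 - 1 : ℕ) : ℝ) + 1 ≤ (2:ℝ) ^ (k0 - 1) := by
        have : (k0 - 1) + 1 ≤ 2 ^ (k0 - 1) := Nat.lt_two_pow_self
        exact_mod_cast this
      have h2 : (2:ℝ) ^ (k0 - 1) ≤ (q:ℝ) ^ (k0 - 1) := pow_le_pow_left₀ (by norm_num) hq2 _
      have h3 : ((k0 - 1 : ℕ) : ℝ) + 1 = k0 := by
        have : (k0 - 1) + 1 = k0 := by omega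
        exact_mod_cast this
      have h4 : 0 ≤ 10 * A * h := by positivity
      linarith
    have h1 := iter k0 h hh (by
      rw [← mul_div_assoc, div_le_iff₀ (by positivity)]
      linarith)
    refine h1.trans (Real.exp_le_exp.2 ?_)
    nlinarith

end

end Crest.Agent.H12.MgfScale
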