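import Mathlib
import Crest.Agent.H12.MgfScale

/-! From the branching recursion `X = 1 + (1/q) ∑ Y_j`, `0 ≤ Y_j ≤ X_j`, `X_j ~ X`, `Y_j` independent,
to the MGF bound `E e^{hX} ≤ exp (2 A h + 20 A h²)`, and to `E e^{X²/(160 A)} ≤ 2 e^{A/10}`. -/

set_option autoImplicit false

namespace Crest.Agent.H12.MgfScale

open MeasureTheory Real ProbabilityTheory

variable {Ω : Type*} [MeasurableSpace Ω] {μ : Measure Ω} [IsProbabilityMeasure μ]

theorem mgf_of_recursion {q : ℕ} (hq : 2 ≤ q) (X : Ω → ℝ) (Xc Y : Fin q → Ω → ℝ) {A B : ℝ}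
    (hXm : Measurable X) (hXcm : ∀ j, Measurable (Xc j)) (hYm : ∀ j, Measurable (Y j))
    (hX0 : ∀ ω, 0 ≤ X ω) (hXB : ∀ ω, X ω ≤ B) (hY0 : ∀ j ω, 0 ≤ Y j ω)
    (hYX : ∀ j ω, Y j ω ≤ Xc j ω) (hXcB : ∀ j ω, Xc j ω ≤ B)
    (hid : ∀ j, IdentDistrib (Xc j) X μ μ) (hind : iIndepFun Y μ)
    (hX : ∀ ω, X ω = 1 + (1 / q : ℝ) * ∑ j, Y j ω) (hXA : ∫ ω, X ω ∂μ ≤ A)
    {h : ℝ} (hh : 0 ≤ h) :
    ∫ ω, Real.exp (h * X ω) ∂μ ≤ Real.exp (2 * A * h + 20 * A * h ^ 2) := by
  have hq0 : (0:ℝ) < q := by positivity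
  have hq2 : (2:ℝ) ≤ q := by exact_mod_cast hq
  have hYB : ∀ j ω, Y j ω ≤ B := fun j ω => (hYX j ω).trans (hXcB j ω)
  have hXc0 : ∀ j ω, 0 ≤ Xc j ω := fun j ω => (hY0 j ω).trans (hYX j ω)
  have hXint := integrable_of_bdd (μ := μ) hXm.aestronglyMeasurable hX0 hXB
  have hYint := fun j => integrable_of_bdd (μ := μ) (hYm j).aestronglyMeasurable (hY0 j) (hYB j)
  -- mean
  have hmean : ∫ ω, X ω ∂μ = 1 + (1 / q : ℝ) * ∑ j, ∫ ω, Y j ω ∂μ := by
    rw [show (fun ω => X ω) = fun ω => 1 + (1 / q : ℝ) * ∑ j, Y j ω from funext hX]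
    rw [integral_add (integrable_const _) ((integrable_finsetSum _ fun j _ => hYint j).const_mul _),
      integral_const_mul, integral_finsetSum _ fun j _ => hYint j]
    simp
  -- mgf factorisation
  have hmgf : ∀ h : ℝ, ∫ ω, Real.exp (h * X ω) ∂μ =
      Real.exp h * ∏ j, ∫ ω, Real.exp (h / q * Y j ω) ∂μ := by
    intro h
    have h1 := hind.mgf_sum hYm (t := h / q) Finset.univ
    unfold mgf at h1
    rw [← h1, ← integral_const_mul]
    apply integral_congr_ae
    refine Filter.Eventually.of_forall fun ω => ?_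
    simp only [Finset.sum_apply]
    rw [← Real.exp_add, hX ω]
    congr 1
    ring
  have hmono : ∀ h : ℝ, 0 ≤ h → ∀ j, ∫ ω, Real.exp (h / q * Y j ω) ∂μ ≤
      ∫ ω, Real.exp (h / q * X ω) ∂μ := by
    intro h hh j
    have h1 : ∫ ω, Real.exp (h / q * Xc j ω) ∂μ = ∫ ω, Real.exp (h / q * X ω) ∂μ :=
      ((hid j).comp (u := fun x => Real.exp (h / q * x)) (by fun_prop)).integral_eq
    rw [← h1]
    have hhq : 0 ≤ h / q := by positivity
    apply integral_mono (integrable_exp_of_bdd _ hhq (hYm j).aestronglyMeasurable (hYB j))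
      (integrable_exp_of_bdd _ hhq (hXcm j).aestronglyMeasurable (hXcB j))
    intro ω
    exact Real.exp_le_exp.2 (mul_le_mul_of_nonneg_left (hYX j ω) hhq)
  have hrec2 : ∀ h : ℝ, 0 ≤ h → ∫ ω, Real.exp (h * X ω) ∂μ ≤
      Real.exp h * (∫ ω, Real.exp (h / q * X ω) ∂μ) ^ q := by
    intro h hh
    rw [hmgf h]
    apply mul_le_mul_of_nonneg_left _ (Real.exp_pos _).le
    calc ∏ j, ∫ ω, Real.exp (h / q * Y j ω) ∂μ ≤ ∏ _j : Fin q, ∫ ω, Real.exp (h / q * X ω) ∂μ :=
          Finset.prod_le_prod (fun j _ => integral_nonneg fun ω => (Real.exp_pos _).le)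
            (fun j _ => hmono h hh j)
      _ = _ := by simp
  have hpsi : ∀ h : ℝ, 0 ≤ h → ∀ j, psi μ (Y j) h ≤ psi μ X h := by
    intro h hh j
    have h1 : psi μ (Xc j) h = psi μ X h := by
      unfold psi
      exact ((hid j).comp (u := fun x => Real.exp (h * x) - 1 - h * x) (by fun_prop)).integral_eq
    rw [← h1]
    unfold psi
    apply integral_mono
    · exact ((integrable_exp_of_bdd h hh (hYm j).aestronglyMeasurable (hYB j)).sub
        (integrable_const _)).sub ((hYint j).const_mul h)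
    · exact ((integrable_exp_of_bdd h hh (hXcm j).aestronglyMeasurable (hXcB j)).sub
        (integrable_const _)).sub
        ((integrable_of_bdd (hXcm j).aestronglyMeasurable (hXc0 j) (hXcB j)).const_mul h)
    · intro ω
      -- e^x - 1 - x monotone on [0,∞)
      have hxy : h * Y j ω ≤ h * Xc j ω := mul_le_mul_of_nonneg_left (hYX j ω) hh
      have hx0 : 0 ≤ h * Y j ω := mul_nonneg hh (hY0 j ω)
      have h2 := Real.add_one_le_exp (h * Xc j ω - h * Y j ω)
      have h3 : Real.exp (h * Xc j ω) = Real.exp (h * Y j ω) *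
          Real.exp (h * Xc j ω - h * Y j ω) := by rw [← Real.exp_add]; ring_nf
      have h4 : 1 ≤ Real.exp (h * Y j ω) := Real.one_le_exp hx0
      have h5 : 0 ≤ h * Xc j ω - h * Y j ω := by linarith
      simp only
      rw [h3]
      nlinarith [mul_le_mul_of_nonneg_left h2 (Real.exp_pos (h * Y j ω)).le,
        mul_le_mul_of_nonneg_right h4 h5]
  have hrec : ∀ h : ℝ, 0 ≤ h → ∫ ω, Real.exp (h * X ω) ∂μ ≤
      Real.exp (h * (∫ ω, X ω ∂μ) + q * psi μ X (h / q)) := by
    intro h hh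
    rw [hmgf h]
    have hhq : 0 ≤ h / q := by positivity
    have h1 : ∀ j, ∫ ω, Real.exp (h / q * Y j ω) ∂μ ≤
        Real.exp (h / q * (∫ ω, Y j ω ∂μ) + psi μ X (h / q)) := by
      intro j
      have h2 := psi_eq (μ := μ) (h / q) hhq (hYm j).aestronglyMeasurable (hY0 j) (hYB j)
      have h3 := hpsi (h / q) hhq j
      have h4 := Real.add_one_le_exp (h / q * (∫ ω, Y j ω ∂μ) + psi μ X (h / q))
      linarith
    calc Real.exp h * ∏ j, ∫ ω, Real.exp (h / q * Y j ω) ∂μ
        ≤ Real.exp h * ∏ j, Real.exp (h / q * (∫ ω, Y j ω ∂μ) + psi μ X (h / q)) := by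
          apply mul_le_mul_of_nonneg_left _ (Real.exp_pos _).le
          exact Finset.prod_le_prod (fun j _ => integral_nonneg fun ω => (Real.exp_pos _).le)
            (fun j _ => h1 j)
      _ = Real.exp (h * (∫ ω, X ω ∂μ) + q * psi μ X (h / q)) := by
          rw [← Real.exp_sum, ← Real.exp_add, hmean]
          congr 1
          rw [Finset.sum_add_distrib, ← Finset.mul_sum]
          simp
          ring
  -- second moment
  have hvar : ∫ ω, X ω ^ 2 ∂μ ≤ 2 * A ^ 2 := by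
    have hYL2 : ∀ j, MemLp (Y j) 2 μ := fun j =>
      MemLp.of_bound (hYm j).aestronglyMeasurable B (Filter.Eventually.of_forall fun ω => by
        rw [Real.norm_eq_abs, abs_of_nonneg (hY0 j ω)]; exact hYB j ω)
    have hXL2 : MemLp X 2 μ :=
      MemLp.of_bound hXm.aestronglyMeasurable B (Filter.Eventually.of_forall fun ω => by
        rw [Real.norm_eq_abs, abs_of_nonneg (hX0 ω)]; exact hXB ω)
    have hS : variance (∑ j, Y j) μ = ∑ j, variance (Y j) μ :=
      IndepFun.variance_sum (fun j _ => hYL2 j) (fun i _ j _ hij => hind.indepFun hij)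
    have hVX : variance X μ = (1 / q : ℝ) ^ 2 * ∑ j, variance (Y j) μ := by
      rw [← hS, ← variance_const_mul]
      have : X = fun ω => 1 + (1 / q : ℝ) * (∑ j, Y j) ω := by
        funext ω; rw [hX ω]; simp
      rw [this, variance_const_add]
      have hm2 : Measurable (fun ω => (∑ j, Y j) ω) := by
        simp only [Finset.sum_apply]
        exact Finset.measurable_sum _ fun j _ => hYm j
      exact (hm2.const_mul _).aestronglyMeasurable
    have hVY : ∀ j, variance (Y j) μ ≤ ∫ ω, X ω ^ 2 ∂μ := by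
      intro j
      have h1 : variance (Y j) μ ≤ ∫ ω, (Y j ω) ^ 2 ∂μ := by
        rw [variance_eq_sub (hYL2 j)]
        have : 0 ≤ (∫ ω, Y j ω ∂μ) ^ 2 := sq_nonneg _
        simp only [Pi.pow_apply]
        linarith
      have h2 : ∫ ω, (Y j ω) ^ 2 ∂μ ≤ ∫ ω, (Xc j ω) ^ 2 ∂μ := by
        apply integral_mono (hYL2 j).integrable_sq
        · have hXcL2 : MemLp (Xc j) 2 μ :=
            MemLp.of_bound (hXcm j).aestronglyMeasurable B (Filter.Eventually.of_forall fun ω => by
              rw [Real.norm_eq_abs, abs_of_nonneg (hXc0 j ω)]; exact hXcB j ω)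
          exact hXcL2.integrable_sq
        · intro ω
          exact pow_le_pow_left₀ (hY0 j ω) (hYX j ω) 2
      have h3 : ∫ ω, (Xc j ω) ^ 2 ∂μ = ∫ ω, X ω ^ 2 ∂μ :=
        ((hid j).comp (u := fun x => x ^ 2) (by fun_prop)).integral_eq
      linarith
    have hV := variance_eq_sub hXL2
    simp only [Pi.pow_apply] at hV
    have h1 : (1 / q : ℝ) ^ 2 * ∑ j, variance (Y j) μ ≤ (1 / q : ℝ) * ∫ ω, X ω ^ 2 ∂μ := by
      have : ∑ j, variance (Y j) μ ≤ ∑ _j : Fin q, ∫ ω, X ω ^ 2 ∂μ :=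
        Finset.sum_le_sum fun j _ => hVY j
      simp at this
      calc (1 / q : ℝ) ^ 2 * ∑ j, variance (Y j) μ ≤ (1 / q : ℝ) ^ 2 * (q * ∫ ω, X ω ^ 2 ∂μ) :=
            mul_le_mul_of_nonneg_left this (by positivity)
        _ = (1 / q : ℝ) * ∫ ω, X ω ^ 2 ∂μ := by field_simp
    have h2 : (1 / q : ℝ) ≤ 1 / 2 := by
      apply one_div_le_one_div_of_le (by norm_num) hq2
    have hX2nn : 0 ≤ ∫ ω, X ω ^ 2 ∂μ := integral_nonneg fun ω => sq_nonneg _
    have hm0 : 0 ≤ ∫ ω, X ω ∂μ := integral_nonneg hX0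
    have h3 : (∫ ω, X ω ∂μ) ^ 2 ≤ A ^ 2 := pow_le_pow_left₀ hm0 hXA 2
    have h4 := mul_le_mul_of_nonneg_right h2 hX2nn
    rw [hVX] at hV
    linarith
  have hA : 0 < A := by
    have : (1:ℝ) ≤ ∫ ω, X ω ∂μ := by
      rw [hmean]
      have : 0 ≤ (1 / q : ℝ) * ∑ j, ∫ ω, Y j ω ∂μ :=
        mul_nonneg (by positivity) (Finset.sum_nonneg fun j _ => integral_nonneg (hY0 j))
      linarith
    linarith
  exact log_mgf_le hq hA hXm.aestronglyMeasurable hX0 hXB hXA hvar hrec hrec2 hh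

/-- Gaussian linearisation: `exp (c² x² / 2) √(2π) = ∫ exp (c g x - g²/2) dg`. -/
lemma gauss_lin (a : ℝ) : ∫ g : ℝ, Real.exp (a * g - g ^ 2 / 2) =
    Real.exp (a ^ 2 / 2) * √(2 * π) := by
  have h1 : ∀ g : ℝ, Real.exp (a * g - g ^ 2 / 2) =
      Real.exp (a ^ 2 / 2) * Real.exp (-(1/2) * (g - a) ^ 2) := by
    intro g; rw [← Real.exp_add]; ring_nf
  simp_rw [h1]
  rw [integral_const_mul]
  congr 1
  rw [integral_sub_right_eq_self (fun g : ℝ => Real.exp (-(1/2) * g ^ 2)) a, integral_gaussian]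
  congr 1
  ring

lemma gauss_lin_integrable (a : ℝ) : Integrable (fun g : ℝ => Real.exp (a * g - g ^ 2 / 2)) := by
  have h1 : ∀ g : ℝ, Real.exp (a * g - g ^ 2 / 2) =
      Real.exp (a ^ 2 / 2) * Real.exp (-(1/2) * (g - a) ^ 2) := by
    intro g; rw [← Real.exp_add]; ring_nf
  simp_rw [h1]
  exact ((integrable_exp_neg_mul_sq (by norm_num : (0:ℝ) < 1/2)).comp_sub_right a).const_mul _

theorem sq_exp_le {X : Ω → ℝ} {A B : ℝ} (hA : 0 < A)
    (hXm : Measurable X) (hX0 : ∀ ω, 0 ≤ X ω) (hXB : ∀ ω, X ω ≤ B)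
    (hM : ∀ h : ℝ, 0 ≤ h → ∫ ω, Real.exp (h * X ω) ∂μ ≤ Real.exp (2 * A * h + 20 * A * h ^ 2)) :
    ∫ ω, Real.exp (X ω ^ 2 / (160 * A)) ∂μ ≤ 2 * Real.exp (A / 10) := by
  set c : ℝ := √(1 / (80 * A)) with hc
  have hc2 : c ^ 2 = 1 / (80 * A) := by rw [hc]; exact Real.sq_sqrt (by positivity)
  have hc0 : 0 < c := by rw [hc]; exact Real.sqrt_pos.2 (by positivity)
  have h2pi : 0 < √(2 * π) := Real.sqrt_pos.2 (by positivity)
  -- product integrability
  have hprod : Integrable (fun p : Ω × ℝ => Real.exp (c * X p.1 * p.2 - p.2 ^ 2 / 2))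
      (μ.prod volume) := by
    have hdom : Integrable (fun p : Ω × ℝ => (1:ℝ) * Real.exp (c * B * |p.2| - p.2 ^ 2 / 2))
        (μ.prod volume) := by
      have h1 : Integrable (fun g : ℝ => Real.exp (c * B * |g| - g ^ 2 / 2)) := by
        have h2 := (gauss_lin_integrable (c * B)).add (gauss_lin_integrable (-(c * B)))
        refine h2.mono (by fun_prop) (Filter.Eventually.of_forall fun g => ?_)
        simp only [Pi.add_apply]
        have e1 := Real.exp_pos (-(c * B) * g - g ^ 2 / 2)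
        have e2 := Real.exp_pos ((c * B) * g - g ^ 2 / 2)
        have e3 : 0 < Real.exp (c * B * g - g ^ 2 / 2) + Real.exp (-(c * B) * g - g ^ 2 / 2) := by
          linarith
        rw [Real.norm_eq_abs, Real.norm_eq_abs, abs_of_pos e3, abs_of_pos (Real.exp_pos _)]
        rcases le_total 0 g with hg | hg
        · rw [abs_of_nonneg hg]; linarith
        · rw [abs_of_nonpos hg]
          have : c * B * -g - g ^ 2 / 2 = -(c * B) * g - g ^ 2 / 2 := by ring
          rw [this]; linarith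
      exact (integrable_const (1:ℝ)).mul_prod h1
    refine hdom.mono ?_ (Filter.Eventually.of_forall fun p => ?_)
    · have : Measurable fun p : Ω × ℝ => Real.exp (c * X p.1 * p.2 - p.2 ^ 2 / 2) := by fun_prop
      exact this.aestronglyMeasurable
    · simp only [one_mul]
      rw [Real.norm_eq_abs, Real.norm_eq_abs, abs_of_pos (Real.exp_pos _),
        abs_of_pos (Real.exp_pos _)]
      apply Real.exp_le_exp.2
      have h1 : c * X p.1 * p.2 ≤ c * X p.1 * |p.2| :=
        mul_le_mul_of_nonneg_left (le_abs_self _) (mul_nonneg hc0.le (hX0 _))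
      have h2 : c * X p.1 * |p.2| ≤ c * B * |p.2| :=
        mul_le_mul_of_nonneg_right (mul_le_mul_of_nonneg_left (hXB _) hc0.le) (abs_nonneg _)
      linarith
  have hlin : ∀ ω, Real.exp (X ω ^ 2 / (160 * A)) * √(2 * π) =
      ∫ g : ℝ, Real.exp (c * X ω * g - g ^ 2 / 2) := by
    intro ω
    rw [gauss_lin (c * X ω)]
    congr 2
    rw [mul_pow, hc2]
    field_simp
    ring
  have h1 : (∫ ω, Real.exp (X ω ^ 2 / (160 * A)) ∂μ) * √(2 * π) =
      ∫ g : ℝ, ∫ ω, Real.exp (c * X ω * g - g ^ 2 / 2) ∂μ := by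
    rw [← integral_mul_const]
    simp_rw [hlin]
    exact integral_integral_swap hprod
  have h2 : ∀ g : ℝ, ∫ ω, Real.exp (c * X ω * g - g ^ 2 / 2) ∂μ ≤
      Real.exp (A / 10) * Real.exp (-(1/8) * g ^ 2) := by
    intro g
    have h3 : ∫ ω, Real.exp (c * X ω * g - g ^ 2 / 2) ∂μ ≤
        ∫ ω, Real.exp (c * |g| * X ω) * Real.exp (-(g ^ 2 / 2)) ∂μ := by
      have hcg : 0 ≤ c * |g| := by positivity
      apply integral_mono_of_nonneg (Filter.Eventually.of_forall fun ω => (Real.exp_pos _).le)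
      · exact (integrable_exp_of_bdd _ hcg hXm.aestronglyMeasurable hXB).mul_const _
      · refine Filter.Eventually.of_forall fun ω => ?_
        simp only
        rw [← Real.exp_add]
        apply Real.exp_le_exp.2
        have h1 : c * X ω * g ≤ c * X ω * |g| :=
          mul_le_mul_of_nonneg_left (le_abs_self _) (mul_nonneg hc0.le (hX0 _))
        linarith
    refine h3.trans ?_
    rw [integral_mul_const]
    have h4 := hM (c * |g|) (by positivity)
    calc (∫ ω, Real.exp (c * |g| * X ω) ∂μ) * Real.exp (-(g ^ 2 / 2))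
        ≤ Real.exp (2 * A * (c * |g|) + 20 * A * (c * |g|) ^ 2) * Real.exp (-(g ^ 2 / 2)) :=
          mul_le_mul_of_nonneg_right h4 (Real.exp_pos _).le
      _ ≤ Real.exp (A / 10) * Real.exp (-(1/8) * g ^ 2) := by
          rw [← Real.exp_add, ← Real.exp_add]
          apply Real.exp_le_exp.2
          have h5 : 20 * A * (c * |g|) ^ 2 = g ^ 2 / 4 := by
            rw [mul_pow, hc2, sq_abs]; field_simp; ring
          have h6 : 2 * A * (c * |g|) ≤ A / 10 + g ^ 2 / 8 := by
            have h7 : A / 10 = 8 * (A * c) ^ 2 := by rw [mul_pow, hc2]; field_simp; ring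
            rw [h7]
            have h8 : g ^ 2 = |g| ^ 2 := (sq_abs g).symm
            rw [h8]
            nlinarith [sq_nonneg (8 * (A * c) - |g|)]
          linarith
  have hint : Integrable (fun g : ℝ => Real.exp (A / 10) * Real.exp (-(1/8) * g ^ 2)) :=
    (integrable_exp_neg_mul_sq (by norm_num : (0:ℝ) < 1/8)).const_mul _
  have h3 : ∫ g : ℝ, ∫ ω, Real.exp (c * X ω * g - g ^ 2 / 2) ∂μ ≤
      ∫ g : ℝ, Real.exp (A / 10) * Real.exp (-(1/8) * g ^ 2) :=
    integral_mono_of_nonneg (Filter.Eventually.of_forall fun g =>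
      integral_nonneg fun ω => (Real.exp_pos _).le) hint (Filter.Eventually.of_forall h2)
  rw [integral_const_mul, integral_gaussian] at h3
  have h4 : √(π / (1/8)) = 2 * √(2 * π) := by
    rw [show π / (1/8) = 2 ^ 2 * (2 * π) by ring, Real.sqrt_mul (by norm_num), Real.sqrt_sq
      (by norm_num)]
  rw [h4, ← h1] at h3
  have h5 : (∫ ω, Real.exp (X ω ^ 2 / (160 * A)) ∂μ) * √(2 * π) ≤
      (2 * Real.exp (A / 10)) * √(2 * π) := by linarith
  exact le_of_mul_le_mul_right h5 h2pi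

end Crest.Agent.H12.MgfScale
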