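import Mathlib
import Crest.Agent.H12.MgfRec

/-! Family version of the MGF scale induction (windows: the law of a child differs from the law of
its parent).  `X v = 1 + (1/q) ∑_{j ∈ ch v} Y v j`, `0 ≤ Y v j ≤ X j`, at most `q` children,
`(Y v j)_j` independent, `E X v ≤ A` for all `v`. -/

set_option autoImplicit false

namespace Crest.Agent.H12.MgfScale

open MeasureTheory Real ProbabilityTheory

variable {Ω : Type*} [MeasurableSpace Ω] {μ : Measure Ω} [IsProbabilityMeasure μ]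

/-- one step of the `ψ` induction -/
lemma psi_step {X : Ω → ℝ} {A B h z : ℝ} (hA : 0 < A)
    (hXm : AEStronglyMeasurable X μ) (hX0 : ∀ ω, 0 ≤ X ω) (hXB : ∀ ω, X ω ≤ B)
    (hX1 : ∫ ω, X ω ∂μ ≤ A) (hh : 0 ≤ h) (hhA : A * h ≤ 1/10)
    (hz0 : 0 ≤ z) (hz : z ≤ (A * h) ^ 2)
    (h1 : ∫ ω, Real.exp (h * X ω) ∂μ ≤ Real.exp (h * (∫ ω, X ω ∂μ) + z)) :
    psi μ X h ≤ 2 * (A * h) ^ 2 := by
  rw [psi_eq h hh hXm hX0 hXB]
  set m := ∫ ω, X ω ∂μ with hm
  have hm0 : 0 ≤ m := integral_nonneg hX0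
  have hmA : h * m ≤ A * h := by nlinarith
  have hAh0 : 0 ≤ A * h := by positivity
  set y := A * h with hy
  have hexp1 : Real.exp (h * m + z) - h * m ≤ Real.exp (y + z) - y := by
    have h5 : Real.exp (y + z) ≥ Real.exp (h * m + z) + (y - h * m) := by
      have h6 : Real.exp (y + z) = Real.exp (h * m + z) * Real.exp (y - h * m) := by
        rw [← Real.exp_add]; ring_nf
      have h7 := Real.add_one_le_exp (y - h * m)
      have h8 : 1 ≤ Real.exp (h * m + z) := Real.one_le_exp (by positivity)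
      have h9 : 0 ≤ y - h * m := by linarith
      rw [h6]
      nlinarith [mul_le_mul_of_nonneg_left h7 (Real.exp_pos (h * m + z)).le,
        mul_le_mul_of_nonneg_right h8 h9]
    linarith
  have hquad : Real.exp (y + z) ≤ 1 + (y + z) + (3/5) * (y + z) ^ 2 := by
    apply exp_le_quad (by positivity)
    nlinarith
  have hyz : y + z ≤ (11/10) * y := by nlinarith
  have : (y + z) ^ 2 ≤ ((11/10) * y) ^ 2 := pow_le_pow_left₀ (by positivity) hyz 2
  nlinarith

lemma psi_nonneg (X : Ω → ℝ) (h : ℝ) : 0 ≤ psi μ X h := by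
  apply integral_nonneg
  intro ω
  have := Real.add_one_le_exp (h * X ω)
  simp only [Pi.zero_apply]
  linarith

section fam

variable {ι : Type*} (ch : ι → Finset ι) (X : ι → Ω → ℝ) (Y : ι → ι → Ω → ℝ) {A B : ℝ} {q : ℕ}

/-- The hypotheses of the family version. -/
structure Fam (μ : Measure Ω) (ch : ι → Finset ι) (X : ι → Ω → ℝ) (Y : ι → ι → Ω → ℝ)
    (A B : ℝ) (q : ℕ) : Prop where
  hq : 2 ≤ q
  hXm : ∀ v, Measurable (X v)
  hYm : ∀ v, ∀ j ∈ ch v, Measurable (Y v j)
  hX0 : ∀ v ω, 0 ≤ X v ω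
  hXB : ∀ v ω, X v ω ≤ B
  hY0 : ∀ v, ∀ j ∈ ch v, ∀ ω, 0 ≤ Y v j ω
  hYX : ∀ v, ∀ j ∈ ch v, ∀ ω, Y v j ω ≤ X j ω
  hcard : ∀ v, (ch v).card ≤ q
  hind : ∀ v, iIndepFun (fun j : ch v => Y v j) μ
  hX : ∀ v ω, X v ω = 1 + (1 / q : ℝ) * ∑ j ∈ ch v, Y v j ω
  hXA : ∀ v, ∫ ω, X v ω ∂μ ≤ A

variable {ch X Y}

theorem Fam.mean (H : Fam μ ch X Y A B q) (v : ι) :
    ∫ ω, X v ω ∂μ = 1 + (1 / q : ℝ) * ∑ j ∈ ch v, ∫ ω, Y v j ω ∂μ := by
  have hYint : ∀ j ∈ ch v, Integrable (Y v j) μ := fun j hj =>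
    integrable_of_bdd (μ := μ) (H.hYm v j hj).aestronglyMeasurable (H.hY0 v j hj)
      (fun ω => (H.hYX v j hj ω).trans (H.hXB j ω))
  rw [show (fun ω => X v ω) = fun ω => 1 + (1 / q : ℝ) * ∑ j ∈ ch v, Y v j ω from
    funext (H.hX v)]
  rw [integral_add (integrable_const _) ((integrable_finsetSum _ hYint).const_mul _),
    integral_const_mul, integral_finsetSum _ hYint]
  simp

theorem Fam.mgf (H : Fam μ ch X Y A B q) (v : ι) (h : ℝ) :
    ∫ ω, Real.exp (h * X v ω) ∂μ =
      Real.exp h * ∏ j ∈ ch v, ∫ ω, Real.exp (h / q * Y v j ω) ∂μ := by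
  have h1 := (H.hind v).mgf_sum (fun j => H.hYm v j j.2) (t := h / q) Finset.univ
  unfold ProbabilityTheory.mgf at h1
  rw [← Finset.prod_coe_sort (ch v) (fun j => ∫ ω, Real.exp (h / q * Y v j ω) ∂μ), ← h1,
    ← integral_const_mul]
  apply integral_congr_ae
  refine Filter.Eventually.of_forall fun ω => ?_
  simp only [Finset.sum_apply]
  rw [← Real.exp_add, H.hX v ω, Finset.sum_coe_sort (ch v) (fun j => Y v j ω)]
  congr 1
  ring

theorem Fam.B_nonneg (H : Fam μ ch X Y A B q) (v : ι) : 0 ≤ B := by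
  have : Nonempty Ω := (inferInstance : IsProbabilityMeasure μ).neZero.out |> fun h => by
    by_contra hne
    rw [not_nonempty_iff] at hne
    exact h (by ext s _; simp [Set.eq_empty_of_isEmpty s])
  obtain ⟨ω⟩ := this
  exact (H.hX0 v ω).trans (H.hXB v ω)

theorem Fam.one_le_mean (H : Fam μ ch X Y A B q) (v : ι) : 1 ≤ ∫ ω, X v ω ∂μ := by
  rw [H.mean v]
  have : 0 ≤ (1 / q : ℝ) * ∑ j ∈ ch v, ∫ ω, Y v j ω ∂μ :=
    mul_nonneg (by positivity) (Finset.sum_nonneg fun j hj => integral_nonneg (H.hY0 v j hj))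
  linarith

theorem Fam.second (H : Fam μ ch X Y A B q) (v : ι) : ∫ ω, X v ω ^ 2 ∂μ ≤ 2 * A ^ 2 := by
  have hq0 : (0:ℝ) < q := by have := H.hq; positivity
  have hq2 : (2:ℝ) ≤ q := by exact_mod_cast H.hq
  have hXL2 : ∀ v, MemLp (X v) 2 μ := fun v =>
    MemLp.of_bound (H.hXm v).aestronglyMeasurable B (Filter.Eventually.of_forall fun ω => by
      rw [Real.norm_eq_abs, abs_of_nonneg (H.hX0 v ω)]; exact H.hXB v ω)
  have hYL2 : ∀ v, ∀ j ∈ ch v, MemLp (Y v j) 2 μ := fun v j hj =>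
    MemLp.of_bound (H.hYm v j hj).aestronglyMeasurable B (Filter.Eventually.of_forall fun ω => by
      rw [Real.norm_eq_abs, abs_of_nonneg (H.hY0 v j hj ω)]
      exact (H.hYX v j hj ω).trans (H.hXB j ω))
  have step : ∀ (C : ℝ), (∀ v, ∫ ω, X v ω ^ 2 ∂μ ≤ C) → ∀ v, ∫ ω, X v ω ^ 2 ∂μ ≤
      (1/2) * C + A ^ 2 := by
    intro C hC v
    have hC0 : 0 ≤ C := (integral_nonneg fun ω => sq_nonneg _).trans (hC v)
    have hS : variance (∑ j : ch v, Y v j) μ = ∑ j : ch v, variance (Y v j) μ :=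
      IndepFun.variance_sum (fun j _ => hYL2 v j j.2)
        (fun i _ j _ hij => (H.hind v).indepFun hij)
    have hVX : variance (X v) μ = (1 / q : ℝ) ^ 2 * ∑ j : ch v, variance (Y v j) μ := by
      rw [← hS, ← variance_const_mul]
      have : X v = fun ω => 1 + (1 / q : ℝ) * (∑ j : ch v, Y v j) ω := by
        funext ω
        rw [H.hX v ω]
        simp only [Finset.sum_apply]
        rw [Finset.sum_coe_sort (ch v) (fun j => Y v j ω)]
      rw [this, variance_const_add]
      have hm2 : Measurable (fun ω => (∑ j : ch v, Y v j) ω) := by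
        simp only [Finset.sum_apply]
        exact Finset.measurable_sum _ fun j _ => H.hYm v j j.2
      exact (hm2.const_mul _).aestronglyMeasurable
    have hVY : ∀ j : ch v, variance (Y v j) μ ≤ C := by
      intro j
      have h1 : variance (Y v j) μ ≤ ∫ ω, (Y v j ω) ^ 2 ∂μ := by
        rw [variance_eq_sub (hYL2 v j j.2)]
        have : 0 ≤ (∫ ω, Y v j ω ∂μ) ^ 2 := sq_nonneg _
        simp only [Pi.pow_apply]
        linarith
      have h2 : ∫ ω, (Y v j ω) ^ 2 ∂μ ≤ ∫ ω, (X j ω) ^ 2 ∂μ := by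
        apply integral_mono (hYL2 v j j.2).integrable_sq (hXL2 j).integrable_sq
        intro ω
        exact pow_le_pow_left₀ (H.hY0 v j j.2 ω) (H.hYX v j j.2 ω) 2
      exact h1.trans (h2.trans (hC j))
    have hV := variance_eq_sub (hXL2 v)
    simp only [Pi.pow_apply] at hV
    have h1 : ∑ j : ch v, variance (Y v j) μ ≤ q * C := by
      calc ∑ j : ch v, variance (Y v j) μ ≤ ∑ _j : ch v, C := Finset.sum_le_sum fun j _ => hVY j
        _ = (ch v).card * C := by simp
        _ ≤ q * C := by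
          apply mul_le_mul_of_nonneg_right _ hC0
          exact_mod_cast H.hcard v
    have h2 : (1 / q : ℝ) ^ 2 * ∑ j : ch v, variance (Y v j) μ ≤ (1/2) * C := by
      calc (1 / q : ℝ) ^ 2 * ∑ j : ch v, variance (Y v j) μ ≤ (1 / q : ℝ) ^ 2 * (q * C) :=
            mul_le_mul_of_nonneg_left h1 (by positivity)
        _ = (1 / q : ℝ) * C := by field_simp
        _ ≤ (1/2) * C := by
            apply mul_le_mul_of_nonneg_right _ hC0
            exact one_div_le_one_div_of_le (by norm_num) hq2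
    have hm0 : 0 ≤ ∫ ω, X v ω ∂μ := integral_nonneg (H.hX0 v)
    have h3 : (∫ ω, X v ω ∂μ) ^ 2 ≤ A ^ 2 := pow_le_pow_left₀ hm0 (H.hXA v) 2
    rw [hVX] at hV
    linarith
  have hn : ∀ n : ℕ, ∀ v, ∫ ω, X v ω ^ 2 ∂μ ≤ 2 * A ^ 2 + B ^ 2 * (1/2) ^ n := by
    intro n
    induction n with
    | zero =>
      intro v
      have h1 : ∫ ω, X v ω ^ 2 ∂μ ≤ ∫ _ω : Ω, B ^ 2 ∂μ := by
        apply integral_mono (hXL2 v).integrable_sq (integrable_const _)
        intro ω
        exact pow_le_pow_left₀ (H.hX0 v ω) (H.hXB v ω) 2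
      simp at h1
      nlinarith [sq_nonneg A]
    | succ n ih =>
      intro v
      have := step _ ih v
      rw [pow_succ (1/2 : ℝ) n]
      nlinarith [sq_nonneg A]
  have hlim : Filter.Tendsto (fun n : ℕ => 2 * A ^ 2 + B ^ 2 * (1/2 : ℝ) ^ n) Filter.atTop
      (nhds (2 * A ^ 2 + B ^ 2 * 0)) := by
    apply Filter.Tendsto.const_add
    apply Filter.Tendsto.const_mul
    exact tendsto_pow_atTop_nhds_zero_of_lt_one (by norm_num) (by norm_num)
  have := ge_of_tendsto' hlim (fun n => hn n v)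
  simpa using this

theorem Fam.psi_le (H : Fam μ ch X Y A B q) {h : ℝ} (hh : 0 ≤ h) (hhA : A * h ≤ 1/10) (v : ι) :
    psi μ (X v) h ≤ 2 * (A * h) ^ 2 := by
  have hq0 : (0:ℝ) < q := by have := H.hq; positivity
  have hq2 : (2:ℝ) ≤ q := by exact_mod_cast H.hq
  have hA : 0 < A := by linarith [H.one_le_mean v, H.hXA v]
  have hB0 := H.B_nonneg v
  have hpsiY : ∀ v, ∀ j ∈ ch v, ∀ h : ℝ, 0 ≤ h → psi μ (Y v j) h ≤ psi μ (X j) h := by
    intro v j hj h hh
    unfold psi
    have hYB : ∀ ω, Y v j ω ≤ B := fun ω => (H.hYX v j hj ω).trans (H.hXB j ω)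
    apply integral_mono
    · exact ((integrable_exp_of_bdd h hh (H.hYm v j hj).aestronglyMeasurable hYB).sub
        (integrable_const _)).sub ((integrable_of_bdd (H.hYm v j hj).aestronglyMeasurable
          (H.hY0 v j hj) hYB).const_mul h)
    · exact ((integrable_exp_of_bdd h hh (H.hXm j).aestronglyMeasurable (H.hXB j)).sub
        (integrable_const _)).sub ((integrable_of_bdd (H.hXm j).aestronglyMeasurable
          (H.hX0 j) (H.hXB j)).const_mul h)
    · intro ω
      have hxy : h * Y v j ω ≤ h * X j ω := mul_le_mul_of_nonneg_left (H.hYX v j hj ω) hh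
      have hx0 : 0 ≤ h * Y v j ω := mul_nonneg hh (H.hY0 v j hj ω)
      have h2 := Real.add_one_le_exp (h * X j ω - h * Y v j ω)
      have h3 : Real.exp (h * X j ω) = Real.exp (h * Y v j ω) *
          Real.exp (h * X j ω - h * Y v j ω) := by rw [← Real.exp_add]; ring_nf
      have h4 : 1 ≤ Real.exp (h * Y v j ω) := Real.one_le_exp hx0
      have h5 : 0 ≤ h * X j ω - h * Y v j ω := by linarith
      simp only
      rw [h3]
      nlinarith [mul_le_mul_of_nonneg_left h2 (Real.exp_pos (h * Y v j ω)).le,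
        mul_le_mul_of_nonneg_right h4 h5]
  have step : ∀ h : ℝ, 0 ≤ h → A * h ≤ 1/10 → (∀ v, psi μ (X v) (h / q) ≤ 2 * (A * (h / q)) ^ 2) →
      ∀ v, psi μ (X v) h ≤ 2 * (A * h) ^ 2 := by
    intro h hh hhA hprev v
    have hhq : 0 ≤ h / q := by positivity
    refine psi_step (z := ∑ j ∈ ch v, psi μ (X j) (h / q)) hA (H.hXm v).aestronglyMeasurable
      (H.hX0 v) (H.hXB v) (H.hXA v) hh hhA (Finset.sum_nonneg fun j _ => psi_nonneg _ _) ?_ ?_
    · calc ∑ j ∈ ch v, psi μ (X j) (h / q) ≤ ∑ _j ∈ ch v, 2 * (A * (h / q)) ^ 2 :=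
            Finset.sum_le_sum fun j _ => hprev j
        _ = (ch v).card * (2 * (A * (h / q)) ^ 2) := by simp
        _ ≤ q * (2 * (A * (h / q)) ^ 2) := by
            apply mul_le_mul_of_nonneg_right _ (by positivity)
            exact_mod_cast H.hcard v
        _ = (2 / q) * (A * h) ^ 2 := by field_simp
        _ ≤ 1 * (A * h) ^ 2 := by
            apply mul_le_mul_of_nonneg_right _ (sq_nonneg _)
            rw [div_le_one hq0]; exact hq2
        _ = (A * h) ^ 2 := one_mul _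
    · rw [H.mgf v h]
      have h1 : ∀ j ∈ ch v, ∫ ω, Real.exp (h / q * Y v j ω) ∂μ ≤
          Real.exp (h / q * (∫ ω, Y v j ω ∂μ) + psi μ (X j) (h / q)) := by
        intro j hj
        have h2 := psi_eq (μ := μ) (h / q) hhq (H.hYm v j hj).aestronglyMeasurable (H.hY0 v j hj)
          (fun ω => (H.hYX v j hj ω).trans (H.hXB j ω))
        have h3 := hpsiY v j hj (h / q) hhq
        have h4 := Real.add_one_le_exp (h / q * (∫ ω, Y v j ω ∂μ) + psi μ (X j) (h / q))
        linarith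
      calc Real.exp h * ∏ j ∈ ch v, ∫ ω, Real.exp (h / q * Y v j ω) ∂μ
          ≤ Real.exp h * ∏ j ∈ ch v, Real.exp (h / q * (∫ ω, Y v j ω ∂μ) + psi μ (X j) (h / q)) := by
            apply mul_le_mul_of_nonneg_left _ (Real.exp_pos _).le
            exact Finset.prod_le_prod (fun j _ => integral_nonneg fun ω => (Real.exp_pos _).le)
              (fun j hj => h1 j hj)
        _ = Real.exp (h * (∫ ω, X v ω ∂μ) + ∑ j ∈ ch v, psi μ (X j) (h / q)) := by
            rw [← Real.exp_sum, ← Real.exp_add, H.mean v]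
            congr 1
            rw [Finset.sum_add_distrib, ← Finset.mul_sum]
            ring
  have hlog2 : 0 < Real.log 2 := Real.log_pos (by norm_num)
  have main : ∀ k : ℕ, ∀ h : ℝ, 0 ≤ h → A * h ≤ 1/10 → (h / q ^ k) * B ≤ Real.log 2 →
      ∀ v, psi μ (X v) h ≤ 2 * (A * h) ^ 2 := by
    intro k
    induction k with
    | zero =>
      intro h hh _ hB v
      simp at hB
      exact psi_small hh (H.hXm v).aestronglyMeasurable (H.hX0 v) (H.hXB v) (H.second v) hB
    | succ k ih =>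
      intro h hh hhA hB
      apply step h hh hhA
      apply ih (h / q) (by positivity)
      · have : h / q ≤ h := div_le_self hh (by linarith)
        nlinarith
      · rw [div_div, ← pow_succ']
        exact hB
  obtain ⟨k, hk⟩ := pow_unbounded_of_one_lt (h * B / Real.log 2) (show (1:ℝ) < q by linarith)
  apply main k h hh hhA
  rw [div_lt_iff₀ hlog2] at hk
  rw [div_mul_eq_mul_div, div_le_iff₀ (by positivity)]
  linarith

/-- sharper form: `k` scales -/
theorem Fam.mgf_iter (H : Fam μ ch X Y A B q) : ∀ (k : ℕ) (h : ℝ), 0 ≤ h →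
    A * (h / q ^ k) ≤ 1/10 → ∀ v, ∫ ω, Real.exp (h * X v ω) ∂μ ≤ Real.exp (k * h + 2 * A * h) := by
  have hq0 : (0:ℝ) < q := by have := H.hq; positivity
  have hq2 : (2:ℝ) ≤ q := by exact_mod_cast H.hq
  intro k
  induction k with
  | zero =>
    intro h hh hk v
    simp only [pow_zero, div_one] at hk
    have hA : 0 < A := by linarith [H.one_le_mean v, H.hXA v]
    have h1 := H.psi_le hh hk v
    rw [psi_eq h hh (H.hXm v).aestronglyMeasurable (H.hX0 v) (H.hXB v)] at h1
    have h2 : ∫ ω, Real.exp (h * X v ω) ∂μ ≤ 1 + 2 * A * h := by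
      have : h * ∫ ω, X v ω ∂μ ≤ h * A := mul_le_mul_of_nonneg_left (H.hXA v) hh
      nlinarith [mul_nonneg hA.le hh]
    refine h2.trans ?_
    have := Real.add_one_le_exp (2 * A * h)
    simp only [Nat.cast_zero, zero_mul, zero_add]
    linarith
  | succ k ih =>
    intro h hh hk v
    rw [H.mgf v h]
    have hhq : 0 ≤ h / q := by positivity
    have hA : 0 < A := by linarith [H.one_le_mean v, H.hXA v]
    have h2 := ih (h / q) hhq (by rw [div_div, ← pow_succ']; exact hk)
    have h3 : ∀ j ∈ ch v, ∫ ω, Real.exp (h / q * Y v j ω) ∂μ ≤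
        Real.exp (k * (h / q) + 2 * A * (h / q)) := by
      intro j hj
      refine le_trans ?_ (h2 j)
      apply integral_mono (integrable_exp_of_bdd _ hhq (H.hYm v j hj).aestronglyMeasurable
        (fun ω => (H.hYX v j hj ω).trans (H.hXB j ω)))
        (integrable_exp_of_bdd _ hhq (H.hXm j).aestronglyMeasurable (H.hXB j))
      intro ω
      exact Real.exp_le_exp.2 (mul_le_mul_of_nonneg_left (H.hYX v j hj ω) hhq)
    have hE1 : 1 ≤ Real.exp (k * (h / q) + 2 * A * (h / q)) := Real.one_le_exp (by positivity)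
    calc Real.exp h * ∏ j ∈ ch v, ∫ ω, Real.exp (h / q * Y v j ω) ∂μ
        ≤ Real.exp h * ∏ _j ∈ ch v, Real.exp (k * (h / q) + 2 * A * (h / q)) := by
          apply mul_le_mul_of_nonneg_left _ (Real.exp_pos _).le
          exact Finset.prod_le_prod (fun j _ => integral_nonneg fun ω => (Real.exp_pos _).le) h3
      _ = Real.exp h * (Real.exp (k * (h / q) + 2 * A * (h / q))) ^ (ch v).card := by simp
      _ ≤ Real.exp h * (Real.exp (k * (h / q) + 2 * A * (h / q))) ^ q := by
          apply mul_le_mul_of_nonneg_left _ (Real.exp_pos _).le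
          exact pow_le_pow_right₀ hE1 (H.hcard v)
      _ = Real.exp (((k + 1 : ℕ) : ℝ) * h + 2 * A * h) := by
          rw [← Real.exp_nat_mul, ← Real.exp_add]
          congr 1
          push_cast
          field_simp
          ring

/-- For `h ≥ 0`: the number of scales is at most `1 + log_q (10 A h)`. -/
theorem Fam.mgf_log (H : Fam μ ch X Y A B q) {h : ℝ} (hh : 0 ≤ h) (v : ι) :
    ∫ ω, Real.exp (h * X v ω) ∂μ ≤
      Real.exp (h * (2 * A + 1 + 2 * Real.log (1 + 10 * A * h))) := by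
  have hq0 : (0:ℝ) < q := by have := H.hq; positivity
  have hq2 : (2:ℝ) ≤ q := by exact_mod_cast H.hq
  have hA : 0 < A := by linarith [H.one_le_mean v, H.hXA v]
  have hL : 0 ≤ Real.log (1 + 10 * A * h) := Real.log_nonneg (by nlinarith [mul_nonneg hA.le hh])
  by_cases hsm : A * h ≤ 1/10
  · refine (H.mgf_iter 0 h hh (by simpa using hsm) v).trans (Real.exp_le_exp.2 ?_)
    simp only [Nat.cast_zero, zero_mul, zero_add]
    nlinarith [mul_nonneg hh hL]
  · push Not at hsm
    obtain ⟨k, hk⟩ := pow_unbounded_of_one_lt (10 * A * h) (show (1:ℝ) < q by linarith)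
    have hex : ∃ k : ℕ, 10 * A * h ≤ (q:ℝ) ^ k := ⟨k, hk.le⟩
    classical
    set k0 := Nat.find hex with hk0
    have hk0s : 10 * A * h ≤ (q:ℝ) ^ k0 := Nat.find_spec hex
    have hk0pos : 0 < k0 := by
      rcases Nat.eq_zero_or_pos k0 with h0 | h0
      · rw [h0] at hk0s; simp at hk0s; linarith
      · exact h0
    have hk0m : (q:ℝ) ^ (k0 - 1) < 10 * A * h := by
      have := Nat.find_min hex (m := k0 - 1) (by omega)
      push Not at this
      exact this
    have hkbound : ((k0 - 1 : ℕ) : ℝ) ≤ 2 * Real.log (1 + 10 * A * h) := by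
      have h2 : (2:ℝ) ^ (k0 - 1) ≤ 1 + 10 * A * h := by
        have := pow_le_pow_left₀ (by norm_num : (0:ℝ) ≤ 2) hq2 (k0 - 1)
        linarith
      have h3 := Real.log_le_log (by positivity) h2
      rw [Real.log_pow] at h3
      have h4 : (1/2 : ℝ) ≤ Real.log 2 := by
        have := Real.log_two_gt_d9; linarith
      have h5 : (0:ℝ) ≤ ((k0 - 1 : ℕ) : ℝ) := Nat.cast_nonneg _
      nlinarith
    have hk1 : (k0 : ℝ) = ((k0 - 1 : ℕ) : ℝ) + 1 := by
      have : (k0 - 1) + 1 = k0 := by omega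
      exact_mod_cast this.symm
    have h1 := H.mgf_iter k0 h hh (by
      rw [← mul_div_assoc, div_le_iff₀ (by positivity)]
      linarith) v
    refine h1.trans (Real.exp_le_exp.2 ?_)
    rw [hk1]
    nlinarith [mul_le_mul_of_nonneg_left hkbound hh]

theorem Fam.mgf_le (H : Fam μ ch X Y A B q) {h : ℝ} (hh : 0 ≤ h) (v : ι) :
    ∫ ω, Real.exp (h * X v ω) ∂μ ≤ Real.exp (2 * A * h + 20 * A * h ^ 2) := by
  have hq0 : (0:ℝ) < q := by have := H.hq; positivity
  have hq2 : (2:ℝ) ≤ q := by exact_mod_cast H.hq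
  have hA : 0 < A := by linarith [H.one_le_mean v, H.hXA v]
  by_cases hsm : A * h ≤ 1/10
  · refine (H.mgf_iter 0 h hh (by simpa using hsm) v).trans (Real.exp_le_exp.2 ?_)
    simp only [Nat.cast_zero, zero_mul, zero_add]
    have : 0 ≤ 20 * A * h ^ 2 := by positivity
    linarith
  · push Not at hsm
    obtain ⟨k, hk⟩ := pow_unbounded_of_one_lt (10 * A * h) (show (1:ℝ) < q by linarith)
    have hex : ∃ k : ℕ, 10 * A * h ≤ (q:ℝ) ^ k := ⟨k, hk.le⟩
    classical
    set k0 := Nat.find hex with hk0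
    have hk0s : 10 * A * h ≤ (q:ℝ) ^ k0 := Nat.find_spec hex
    have hk0pos : 0 < k0 := by
      rcases Nat.eq_zero_or_pos k0 with h0 | h0
      · rw [h0] at hk0s; simp at hk0s; linarith
      · exact h0
    have hk0m : (q:ℝ) ^ (k0 - 1) < 10 * A * h := by
      have := Nat.find_min hex (m := k0 - 1) (by omega)
      push Not at this
      exact this
    have hkbound : (k0 : ℝ) ≤ 2 * (10 * A * h) := by
      have h1 : ((k0 - 1 : ℕ) : ℝ) + 1 ≤ (2:ℝ) ^ (k0 - 1) := by
        have : (k0 - 1) + 1 ≤ 2 ^ (k0 - 1) := Nat.lt_two_pow_self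
        exact_mod_cast this
      have h2 : (2:ℝ) ^ (k0 - 1) ≤ (q:ℝ) ^ (k0 - 1) := pow_le_pow_left₀ (by norm_num) hq2 _
      have h3 : ((k0 - 1 : ℕ) : ℝ) + 1 = k0 := by
        have : (k0 - 1) + 1 = k0 := by omega
        exact_mod_cast this
      have h4 : 0 ≤ 10 * A * h := by positivity
      linarith
    have h1 := H.mgf_iter k0 h hh (by
      rw [← mul_div_assoc, div_le_iff₀ (by positivity)]
      linarith) v
    refine h1.trans (Real.exp_le_exp.2 ?_)
    nlinarith

theorem Fam.sq_exp_le (H : Fam μ ch X Y A B q) (v : ι) :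
    ∫ ω, Real.exp (X v ω ^ 2 / (160 * A)) ∂μ ≤ 2 * Real.exp (A / 10) := by
  have hA : 0 < A := by linarith [H.one_le_mean v, H.hXA v]
  exact MgfScale.sq_exp_le hA (H.hXm v) (H.hX0 v) (H.hXB v) (fun h hh => H.mgf_le hh v)

end fam

end Crest.Agent.H12.MgfScale
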